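import Mathlib.Analysis.SpecialFunctions.Pow.Real
import Mathlib.Analysis.SpecificLimits.Basic

/-!
# P207 / line N4 / row T2: the sum over the orbit

If the stable distances `τ j` (`j < T`) satisfy `τ j ≤ C₀ * min 1 (exp (b (T-j)) t)` and
`exp (-b T) ≤ C₀ t`, then `exp (-c T) + ∑ exp (-c (T-j)) (τ j)^p ≤ C t^σ` for every `σ ≤ p` with
`b σ < c`.
-/

set_option linter.all false

open Finset Real

namespace Vale.Agent.P207.H790.T2

/-- geometric tail. -/
theorem geom_le {d : ℝ} (hd : 0 < d) (T : ℕ) :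
    ∑ j ∈ range T, exp (-d * (T - j)) ≤ (1 - exp (-d))⁻¹ := by
  have h1 : exp (-d) < 1 := by rw [exp_lt_one_iff]; linarith
  have h0 : 0 < exp (-d) := exp_pos _
  have e : ∑ j ∈ range T, exp (-d * (T - j)) = ∑ i ∈ range T, exp (-d) * exp (-d) ^ i := by
    rw [← Finset.sum_range_reflect]
    refine Finset.sum_congr rfl fun i hi => ?_
    rw [Finset.mem_range] at hi
    rw [← exp_nat_mul, ← exp_add]
    congr 1
    have : ((T - 1 - i : ℕ) : ℝ) = T - 1 - i := by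
      rw [Nat.cast_sub (by omega), Nat.cast_sub (by omega)]; push_cast; ring
    rw [this]; ring
  rw [e, ← Finset.mul_sum]
  have h2 : ∑ i ∈ range T, exp (-d) ^ i ≤ (1 - exp (-d))⁻¹ := by
    rw [← tsum_geometric_of_lt_one h0.le h1]
    exact (summable_geometric_of_lt_one h0.le h1).sum_le_tsum _ fun i _ => (pow_pos h0 i).le
  calc exp (-d) * ∑ i ∈ range T, exp (-d) ^ i ≤ 1 * ∑ i ∈ range T, exp (-d) ^ i := by
        refine mul_le_mul_of_nonneg_right h1.le (Finset.sum_nonneg fun i _ => (pow_pos h0 i).le)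
    _ ≤ _ := by rw [one_mul]; exact h2

/-- **the sum lemma** -/
theorem sum_le {b c p σ C₀ : ℝ} (hb : 0 < b) (hσ : 0 ≤ σ) (hσp : σ ≤ p) (hσc : b * σ < c)
    (hC : 1 ≤ C₀) : ∃ C, 0 < C ∧ ∀ (T : ℕ) (t : ℝ) (τ : ℕ → ℝ), 0 < t → t ≤ 1 →
      (∀ j < T, 0 ≤ τ j ∧ τ j ≤ C₀ * min 1 (exp (b * (T - j)) * t)) → exp (-b * T) ≤ C₀ * t →
      exp (-c * T) + ∑ j ∈ range T, exp (-c * (T - j)) * τ j ^ p ≤ C * t ^ σ := by
  have hd : 0 < c - b * σ := by linarith
  have hC0 : 0 < C₀ := by linarith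
  have hq : 0 < (1 - exp (-(c - b * σ)))⁻¹ := by
    rw [inv_pos, sub_pos, exp_lt_one_iff]; linarith
  refine ⟨C₀ ^ σ + C₀ ^ p * (1 - exp (-(c - b * σ)))⁻¹, by positivity, ?_⟩
  intro T t τ ht ht1 hτ hT
  have hp : 0 ≤ p := hσ.trans hσp
  have A : exp (-c * T) ≤ C₀ ^ σ * t ^ σ := by
    have hT0 : (0 : ℝ) ≤ T := Nat.cast_nonneg T
    calc exp (-c * T) ≤ exp (-b * T * σ) := by
          apply exp_le_exp.2; nlinarith
      _ = exp (-b * T) ^ σ := by rw [exp_mul]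
      _ ≤ (C₀ * t) ^ σ := rpow_le_rpow (exp_pos _).le hT hσ
      _ = C₀ ^ σ * t ^ σ := mul_rpow hC0.le ht.le
  have B : ∑ j ∈ range T, exp (-c * (T - j)) * τ j ^ p ≤
      ∑ j ∈ range T, (C₀ ^ p * t ^ σ) * exp (-(c - b * σ) * (T - j)) := by
    refine Finset.sum_le_sum fun j hj => ?_
    obtain ⟨h0, h1⟩ := hτ j (Finset.mem_range.1 hj)
    set x := exp (b * (T - j)) * t with hx
    have hx0 : 0 < x := by positivity
    have hm0 : 0 < min 1 x := lt_min one_pos hx0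
    have h2 : τ j ^ p ≤ C₀ ^ p * x ^ σ := by
      calc τ j ^ p ≤ (C₀ * min 1 x) ^ p := rpow_le_rpow h0 h1 hp
        _ = C₀ ^ p * min 1 x ^ p := mul_rpow hC0.le hm0.le
        _ ≤ C₀ ^ p * min 1 x ^ σ := by
            refine mul_le_mul_of_nonneg_left ?_ (by positivity)
            exact rpow_le_rpow_of_exponent_ge hm0 (min_le_left _ _) hσp
        _ ≤ C₀ ^ p * x ^ σ := by
            refine mul_le_mul_of_nonneg_left ?_ (by positivity)
            exact rpow_le_rpow hm0.le (min_le_right _ _) hσ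
    have h3 : x ^ σ = exp (b * σ * (T - j)) * t ^ σ := by
      rw [hx, mul_rpow (exp_pos _).le ht.le, ← exp_mul]
      congr 2; ring
    calc exp (-c * (T - j)) * τ j ^ p ≤ exp (-c * (T - j)) * (C₀ ^ p * x ^ σ) :=
          mul_le_mul_of_nonneg_left h2 (exp_pos _).le
      _ = (C₀ ^ p * t ^ σ) * (exp (-c * (T - j)) * exp (b * σ * (T - j))) := by rw [h3]; ring
      _ = (C₀ ^ p * t ^ σ) * exp (-(c - b * σ) * (T - j)) := by
          rw [← exp_add]; congr 2; ring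
  rw [← Finset.mul_sum] at B
  have D : (C₀ ^ p * t ^ σ) * ∑ j ∈ range T, exp (-(c - b * σ) * (T - j)) ≤
      (C₀ ^ p * t ^ σ) * (1 - exp (-(c - b * σ)))⁻¹ :=
    mul_le_mul_of_nonneg_left (geom_le hd T) (by positivity)
  calc _ ≤ C₀ ^ σ * t ^ σ + (C₀ ^ p * t ^ σ) * (1 - exp (-(c - b * σ)))⁻¹ :=
        add_le_add A (B.trans D)
    _ = _ := by ring

end Vale.Agent.P207.H790.T2
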