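import Mathlib
import Vale.Agent.P207.H790.N4.Sum

/-!
# P207 / line N4 / row T2: variation of the affine charts and of the generating functions

Abstract, Mathlib only.  Zoom-out indexing: level `0` is the present time, level `T` is the time when the two
leaves are at distance about one.
-/

set_option linter.all false
set_option maxSynthPendingDepth 3

open Finset Real Metric Set

namespace Vale.Agent.P207.H790.T2

/-- **the sum lemma**, zoom-out indexing. -/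
theorem sum_le' {b c p σ C₀ : ℝ} (hb : 0 < b) (hσ : 0 ≤ σ) (hσp : σ ≤ p) (hσc : b * σ < c)
    (hC : 1 ≤ C₀) : ∃ C, 0 < C ∧ ∀ (T : ℕ) (t : ℝ) (τ : ℕ → ℝ), 0 < t → t ≤ 1 →
      (∀ i, 1 ≤ i → i ≤ T → 0 ≤ τ i ∧ τ i ≤ C₀ * min 1 (exp (b * i) * t)) →
      exp (-b * T) ≤ C₀ * t →
      exp (-c * T) + ∑ i ∈ range T, exp (-c * (i + 1)) * τ (i + 1) ^ p ≤ C * t ^ σ := by
  obtain ⟨C, hC0, H⟩ := sum_le hb hσ hσp hσc hC
  refine ⟨C, hC0, fun T t τ ht ht1 hτ hT => ?_⟩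
  have h := H T t (fun j => τ (T - j)) ht ht1 (fun j hj => ?_) hT
  · refine le_trans (le_of_eq ?_) h
    congr 1
    rw [← Finset.sum_range_reflect]
    refine Finset.sum_congr rfl fun j hj => ?_
    rw [Finset.mem_range] at hj
    have e : T - 1 - j + 1 = T - j := by omega
    have e2 : (((T - 1 - j : ℕ) : ℝ) + 1) = T - j := by
      have : ((T - 1 - j + 1 : ℕ) : ℝ) = ((T - j : ℕ) : ℝ) := by rw [e]
      rw [Nat.cast_sub hj.le] at this
      push_cast at this ⊢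
      exact this
    rw [e, e2]
  · have := hτ (T - j) (by omega) (by omega)
    rw [Nat.cast_sub hj.le] at this
    exact this

variable {E G : Type*} [NormedAddCommGroup E] [NormedSpace ℝ E] [NormedAddCommGroup G]
  [NormedSpace ℝ G]

/-- second order chain rule. -/
theorem d2_comp {E' : Type*} [NormedAddCommGroup E'] [NormedSpace ℝ E'] {f : E' → G} {g : E → E'}
    {x : E} (hf : ContDiffAt ℝ 2 f (g x)) (hg : ContDiffAt ℝ 2 g x)
    (u v : E) : fderiv ℝ (fderiv ℝ (fun y => f (g y))) x u v =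
      fderiv ℝ (fderiv ℝ f) (g x) (fderiv ℝ g x u) (fderiv ℝ g x v) +
        fderiv ℝ f (g x) (fderiv ℝ (fderiv ℝ g) x u v) := by
  have e1 : ∀ᶠ y in nhds x, ContDiffAt ℝ 2 g y := hg.eventually (by simp)
  have e2 : ∀ᶠ y in nhds x, ContDiffAt ℝ 2 f (g y) :=
    hg.continuousAt.eventually (hf.eventually (by simp))
  have e3 : fderiv ℝ (fun y => f (g y)) =ᶠ[nhds x]
      fun y => (fderiv ℝ f (g y)).comp (fderiv ℝ g y) := by
    filter_upwards [e1, e2] with y h1 h2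
    exact fderiv_comp y (h2.differentiableAt (by norm_num)) (h1.differentiableAt (by norm_num))
  rw [e3.fderiv_eq]
  have hf1 : DifferentiableAt ℝ (fderiv ℝ f) (g x) :=
    (hf.fderiv_right (m := 1) (by norm_num)).differentiableAt (by norm_num)
  have hg1 : DifferentiableAt ℝ (fderiv ℝ g) x :=
    (hg.fderiv_right (m := 1) (by norm_num)).differentiableAt (by norm_num)
  have hg0 : DifferentiableAt ℝ g x := hg.differentiableAt (by norm_num)
  have h1 : HasFDerivAt (fun y => fderiv ℝ f (g y))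
      ((fderiv ℝ (fderiv ℝ f) (g x)).comp (fderiv ℝ g x)) x :=
    hf1.hasFDerivAt.comp x hg0.hasFDerivAt
  have h2 := h1.clm_comp hg1.hasFDerivAt
  rw [h2.fderiv]
  simp [add_comm]

/-- **variation of the affine charts (abstract)**: `F i` = the level `i` affine chart of the
neighbouring leaf followed by the (affine) expansion down to level `0`. -/
theorem aff_var {a b σ C₀ : ℝ} (hb : 0 < b) (hσ : 0 ≤ σ) (hσ1 : σ ≤ 1)
    (hσb : b * σ < 2 * a - b) (hC : 1 ≤ C₀) : ∃ C, 0 < C ∧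
    ∀ (T : ℕ) (t : ℝ) (τ : ℕ → ℝ) (F : ℕ → E → G) (g : ℕ → E → E) (c : ℕ → G) (U : ℕ → Set E),
      0 < t → t ≤ 1 → (∀ i, 1 ≤ i → i ≤ T → 0 ≤ τ i ∧ τ i ≤ C₀ * min 1 (exp (b * i) * t)) →
      exp (-b * T) ≤ C₀ * t → (∀ i ≤ T, IsOpen (U i)) →
      (∀ i ≤ T, ContDiffOn ℝ 2 (F i) (U i)) → (∀ i < T, ContDiffOn ℝ 2 (g i) (U i)) →
      (∀ i < T, MapsTo (g i) (U i) (U (i + 1))) →
      (∀ i < T, ∀ x ∈ U i, F i x = F (i + 1) (g i x) + c i) →
      (∀ x ∈ U T, ‖fderiv ℝ (fderiv ℝ (F T)) x‖ ≤ C₀ * exp (b * T)) →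
      (∀ i, 1 ≤ i → i ≤ T → ∀ x ∈ U i, ‖fderiv ℝ (F i) x‖ ≤ C₀ * exp (b * i)) →
      (∀ i ≤ T, ∀ x ∈ U i, ∀ u, ‖u‖ ≤ C₀ * exp (-a * i) * ‖fderiv ℝ (F i) x u‖) →
      (∀ x ∈ U 0, ‖fderiv ℝ (F 0) x‖ ≤ C₀) →
      (∀ i < T, ∀ x ∈ U i, ‖fderiv ℝ (fderiv ℝ (g i)) x‖ ≤ C₀ * τ (i + 1)) →
      ∀ q ∈ U 0, ‖fderiv ℝ (fderiv ℝ (F 0)) q‖ ≤ C * t ^ σ := by
  have ha : 0 < 2 * a := by nlinarith
  have hc : b * σ < 2 * a - b := hσb
  obtain ⟨C, hC0, H⟩ := sum_le' (p := 1) hb hσ hσ1 hc hC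
  have hC₀ : 0 < C₀ := by linarith
  refine ⟨C₀ ^ 6 * exp (2 * a) * C, by positivity, ?_⟩
  intro T t τ F g c U ht ht1 hτ hT hU hF hg hgm hrel hF2 hF1 hlow hF0 hg2 q hq
  have hs := H T t τ ht ht1 hτ hT
  -- the induction
  have key : ∀ i ≤ T, ∃ x ∈ U i, ∃ Y : E →L[ℝ] E, fderiv ℝ (F 0) q = (fderiv ℝ (F i) x).comp Y ∧
      ∀ u v, ‖fderiv ℝ (fderiv ℝ (F 0)) q u v - fderiv ℝ (fderiv ℝ (F i)) x (Y u) (Y v)‖ ≤
        (∑ k ∈ range i, C₀ ^ 6 * exp (2 * a) * (exp (-(2 * a - b) * (k + 1)) * τ (k + 1) ^ (1:ℝ)))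
          * ‖u‖ * ‖v‖ := by
    intro i
    induction i with
    | zero =>
      intro _
      refine ⟨q, hq, ContinuousLinearMap.id ℝ E, by simp, fun u v => ?_⟩
      simp
    | succ i ih =>
      intro hi
      obtain ⟨x, hx, Y, hY, hD⟩ := ih (by omega)
      have hiT : i < T := by omega
      have hgx := hgm i hiT hx
      have cF : ContDiffAt ℝ 2 (F (i + 1)) (g i x) :=
        (hF (i + 1) hi _ hgx).contDiffAt ((hU (i + 1) hi).mem_nhds hgx)
      have cg : ContDiffAt ℝ 2 (g i) x := (hg i hiT x hx).contDiffAt ((hU i hiT.le).mem_nhds hx)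
      have hev : F i =ᶠ[nhds x] fun y => F (i + 1) (g i y) + c i := by
        filter_upwards [(hU i hiT.le).mem_nhds hx] with y hy using hrel i hiT y hy
      have hd1 : fderiv ℝ (F i) =ᶠ[nhds x] fderiv ℝ (fun y => F (i + 1) (g i y)) := by
        filter_upwards [hev.eventuallyEq_nhds] with y hy
        rw [hy.fderiv_eq, fderiv_add_const]
      have h1 : fderiv ℝ (F i) x = (fderiv ℝ (F (i + 1)) (g i x)).comp (fderiv ℝ (g i) x) := by
        rw [hd1.eq_of_nhds]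
        exact fderiv_comp x (cF.differentiableAt (by norm_num)) (cg.differentiableAt (by norm_num))
      have h2 : ∀ u v, fderiv ℝ (fderiv ℝ (F i)) x u v =
          fderiv ℝ (fderiv ℝ (F (i + 1))) (g i x) (fderiv ℝ (g i) x u) (fderiv ℝ (g i) x v) +
            fderiv ℝ (F (i + 1)) (g i x) (fderiv ℝ (fderiv ℝ (g i)) x u v) := by
        intro u v
        rw [hd1.fderiv_eq]
        exact d2_comp cF cg u v
      refine ⟨g i x, hgx, (fderiv ℝ (g i) x).comp Y, ?_, fun u v => ?_⟩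
      · rw [hY, h1]; rfl
      have hYn : ∀ w, ‖Y w‖ ≤ C₀ ^ 2 * exp (-a * i) * ‖w‖ := by
        intro w
        have l1 := hlow i hiT.le x hx (Y w)
        have l2 : fderiv ℝ (F i) x (Y w) = fderiv ℝ (F 0) q w := by rw [hY]; rfl
        rw [l2] at l1
        have l3 : ‖fderiv ℝ (F 0) q w‖ ≤ C₀ * ‖w‖ :=
          (ContinuousLinearMap.le_opNorm _ _).trans
            (mul_le_mul_of_nonneg_right (hF0 q hq) (norm_nonneg _))
        calc ‖Y w‖ ≤ C₀ * exp (-a * i) * ‖fderiv ℝ (F 0) q w‖ := l1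
          _ ≤ C₀ * exp (-a * i) * (C₀ * ‖w‖) := mul_le_mul_of_nonneg_left l3 (by positivity)
          _ = _ := by ring
      have hτ0 : 0 ≤ τ (i + 1) := (hτ (i + 1) (by omega) hi).1
      have hlast : ‖fderiv ℝ (F (i + 1)) (g i x) (fderiv ℝ (fderiv ℝ (g i)) x (Y u) (Y v))‖ ≤
          C₀ ^ 6 * exp (2 * a) * (exp (-(2 * a - b) * (i + 1)) * τ (i + 1) ^ (1:ℝ)) *
            ‖u‖ * ‖v‖ := by
        have m1 : ‖fderiv ℝ (F (i + 1)) (g i x)‖ ≤ C₀ * exp (b * (i + 1)) := by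
          have := hF1 (i + 1) (by omega) hi _ hgx
          push_cast at this
          exact this
        have m2 : ‖fderiv ℝ (fderiv ℝ (g i)) x (Y u) (Y v)‖ ≤
            C₀ * τ (i + 1) * (C₀ ^ 2 * exp (-a * i) * ‖u‖) * (C₀ ^ 2 * exp (-a * i) * ‖v‖) := by
          refine (ContinuousLinearMap.le_opNorm₂ _ _ _).trans ?_
          exact mul_le_mul (mul_le_mul (hg2 i hiT x hx) (hYn u) (norm_nonneg _) (by positivity))
            (hYn v) (norm_nonneg _) (by positivity)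
        calc ‖fderiv ℝ (F (i + 1)) (g i x) (fderiv ℝ (fderiv ℝ (g i)) x (Y u) (Y v))‖
            ≤ ‖fderiv ℝ (F (i + 1)) (g i x)‖ * ‖fderiv ℝ (fderiv ℝ (g i)) x (Y u) (Y v)‖ :=
              ContinuousLinearMap.le_opNorm _ _
          _ ≤ (C₀ * exp (b * (i + 1))) * (C₀ * τ (i + 1) * (C₀ ^ 2 * exp (-a * i) * ‖u‖) *
              (C₀ ^ 2 * exp (-a * i) * ‖v‖)) :=
              mul_le_mul m1 m2 (norm_nonneg _) (by positivity)
          _ = C₀ ^ 6 * (exp (b * (i + 1)) * exp (-a * i) * exp (-a * i)) * τ (i + 1) *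
              ‖u‖ * ‖v‖ := by ring
          _ = _ := by
              have : exp (b * (i + 1)) * exp (-a * i) * exp (-a * i) =
                  exp (2 * a) * exp (-(2 * a - b) * (i + 1)) := by
                rw [← exp_add, ← exp_add, ← exp_add]; congr 1; ring
              rw [this, rpow_one]; ring
      have heq : fderiv ℝ (fderiv ℝ (F i)) x (Y u) (Y v) =
          fderiv ℝ (fderiv ℝ (F (i + 1))) (g i x) ((fderiv ℝ (g i) x).comp Y u)
            ((fderiv ℝ (g i) x).comp Y v) +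
          fderiv ℝ (F (i + 1)) (g i x) (fderiv ℝ (fderiv ℝ (g i)) x (Y u) (Y v)) := h2 _ _
      rw [Finset.sum_range_succ, add_mul, add_mul]
      calc ‖fderiv ℝ (fderiv ℝ (F 0)) q u v - fderiv ℝ (fderiv ℝ (F (i + 1))) (g i x)
            ((fderiv ℝ (g i) x).comp Y u) ((fderiv ℝ (g i) x).comp Y v)‖
          = ‖(fderiv ℝ (fderiv ℝ (F 0)) q u v - fderiv ℝ (fderiv ℝ (F i)) x (Y u) (Y v)) +
              fderiv ℝ (F (i + 1)) (g i x) (fderiv ℝ (fderiv ℝ (g i)) x (Y u) (Y v))‖ := by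
            rw [heq]; congr 1; abel
        _ ≤ _ := (norm_add_le _ _).trans (add_le_add (hD u v) hlast)
  obtain ⟨x, hx, Y, hY, hD⟩ := key T le_rfl
  have hYn : ∀ w, ‖Y w‖ ≤ C₀ ^ 2 * exp (-a * T) * ‖w‖ := by
    intro w
    have l1 := hlow T le_rfl x hx (Y w)
    have l2 : fderiv ℝ (F T) x (Y w) = fderiv ℝ (F 0) q w := by rw [hY]; rfl
    rw [l2] at l1
    have l3 : ‖fderiv ℝ (F 0) q w‖ ≤ C₀ * ‖w‖ :=
      (ContinuousLinearMap.le_opNorm _ _).trans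
        (mul_le_mul_of_nonneg_right (hF0 q hq) (norm_nonneg _))
    calc ‖Y w‖ ≤ C₀ * exp (-a * T) * ‖fderiv ℝ (F 0) q w‖ := l1
      _ ≤ C₀ * exp (-a * T) * (C₀ * ‖w‖) := mul_le_mul_of_nonneg_left l3 (by positivity)
      _ = _ := by ring
  have hpos : 0 ≤ C₀ ^ 6 * exp (2 * a) * C * t ^ σ := by
    have : 0 ≤ t ^ σ := rpow_nonneg ht.le _
    positivity
  refine ContinuousLinearMap.opNorm_le_bound₂ _ hpos fun u v => ?_
  have hT2 : ‖fderiv ℝ (fderiv ℝ (F T)) x (Y u) (Y v)‖ ≤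
      C₀ ^ 6 * exp (2 * a) * exp (-(2 * a - b) * T) * ‖u‖ * ‖v‖ := by
    calc ‖fderiv ℝ (fderiv ℝ (F T)) x (Y u) (Y v)‖
        ≤ C₀ * exp (b * T) * (C₀ ^ 2 * exp (-a * T) * ‖u‖) * (C₀ ^ 2 * exp (-a * T) * ‖v‖) := by
          refine (ContinuousLinearMap.le_opNorm₂ _ _ _).trans ?_
          exact mul_le_mul (mul_le_mul (hF2 x hx) (hYn u) (norm_nonneg _) (by positivity))
            (hYn v) (norm_nonneg _) (by positivity)
      _ = C₀ ^ 5 * (exp (b * T) * exp (-a * T) * exp (-a * T)) * ‖u‖ * ‖v‖ := by ring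
      _ = C₀ ^ 5 * exp (-(2 * a - b) * T) * ‖u‖ * ‖v‖ := by
          have : exp (b * T) * exp (-a * T) * exp (-a * T) = exp (-(2 * a - b) * T) := by
            rw [← exp_add, ← exp_add]; congr 1; ring
          rw [this]
      _ ≤ _ := by
          have k1 : C₀ ^ 5 ≤ C₀ ^ 6 := pow_le_pow_right₀ hC (by norm_num)
          have k2 : 1 ≤ exp (2 * a) := one_le_exp ha.le
          have k3 : C₀ ^ 5 ≤ C₀ ^ 6 * exp (2 * a) :=
            k1.trans (le_mul_of_one_le_right (by positivity) k2)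
          gcongr
  have hsum : (∑ k ∈ range T, C₀ ^ 6 * exp (2 * a) *
      (exp (-(2 * a - b) * (k + 1)) * τ (k + 1) ^ (1:ℝ))) =
      C₀ ^ 6 * exp (2 * a) * ∑ k ∈ range T, exp (-(2 * a - b) * (k + 1)) * τ (k + 1) ^ (1:ℝ) := by
    rw [Finset.mul_sum]
  calc ‖fderiv ℝ (fderiv ℝ (F 0)) q u v‖
      = ‖(fderiv ℝ (fderiv ℝ (F 0)) q u v - fderiv ℝ (fderiv ℝ (F T)) x (Y u) (Y v)) +
          fderiv ℝ (fderiv ℝ (F T)) x (Y u) (Y v)‖ := by congr 1; abel
    _ ≤ _ := norm_add_le _ _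
    _ ≤ (C₀ ^ 6 * exp (2 * a) * ∑ k ∈ range T,
          exp (-(2 * a - b) * (k + 1)) * τ (k + 1) ^ (1:ℝ)) * ‖u‖ * ‖v‖ +
          C₀ ^ 6 * exp (2 * a) * exp (-(2 * a - b) * T) * ‖u‖ * ‖v‖ := by
        have := hD u v
        rw [hsum] at this
        exact add_le_add this hT2
    _ = C₀ ^ 6 * exp (2 * a) * (exp (-(2 * a - b) * T) + ∑ k ∈ range T,
          exp (-(2 * a - b) * (k + 1)) * τ (k + 1) ^ (1:ℝ)) * ‖u‖ * ‖v‖ := by ring
    _ ≤ C₀ ^ 6 * exp (2 * a) * (C * t ^ σ) * ‖u‖ * ‖v‖ := by gcongr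
    _ = _ := by ring

end Vale.Agent.P207.H790.T2
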