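import Vale.Agent.P207.H242.T2
import Vale.Agent.P207.H469.Ball

/-!
# P207 / line N4 / row T2a: the affine charts of a neighbouring leaf, along one backward orbit

`A i` : the chart of the neighbouring leaf in the affine coordinate of the central leaf at time
`-i`; `Px i`, `Pz i` the flow from level `i + 1` to level `i` on the two leaves.
-/

set_option linter.all false
set_option maxSynthPendingDepth 3

open Set Metric Filter Topology
open scoped ContDiff

namespace Vale.Agent.P207.H790.T2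

variable {E : Type} [NormedAddCommGroup E] [NormedSpace ℝ E]

theorem aq_seq {a b s : ℝ} (k : ℕ) (hk : 2 ≤ k) (ha : 0 ≤ a) (hs : 0 ≤ s) (hs1 : s < 1)
    (hbs : b * s < 2 * a - b) (C₁ : ℕ → ℝ) (C₂ : ℝ) :
    ∃ K : ℝ, 0 ≤ K ∧ ∀ (n : ℕ) (t : ℝ)
      (A : ℕ → E → E) (Px Pz : ℕ → E ≃L[ℝ] E), 0 < t → Real.exp (-(b * n)) ≤ C₂ * t →
      (∀ i < n, ‖((Px i).symm : E →L[ℝ] E)‖ ≤ Real.exp (-a)) →
      (∀ i < n, ‖(Pz i : E →L[ℝ] E)‖ ≤ Real.exp b) →
      (∀ i ≤ n, ContDiffOn ℝ ∞ (A i) (ball 0 1)) →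
      (∀ i ≤ n, ∀ j, ∀ w ∈ ball (0 : E) 1, ‖iteratedFDeriv ℝ j (A i) w‖ ≤ C₁ j) →
      (∀ i < n, ∀ w ∈ ball (0 : E) 1, ‖A i w - Pz i (A (i + 1) ((Px i).symm w))‖ ≤
        C₂ * (Real.exp (b * (i + 1)) * t)) →
      ∀ w ∈ ball (0 : E) 1, ‖iteratedFDeriv ℝ k (A 0) w‖ ≤ K * t ^ s := by
  -- bounds of the error
  set M : ℕ → ℝ := fun j => |C₁ j| + Real.exp b * |C₁ j| with hM
  have hM0 : ∀ j, 0 ≤ M j := fun j => by rw [hM]; positivity
  set S : ℝ := 1 + M 0 with hS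
  have hS1 : 1 ≤ S := by have := hM0 0; rw [hS]; linarith
  have hS0 : 0 < S := by linarith
  obtain ⟨Ci, hCi, HI⟩ := Vale.Agent.P207.H469.exists_interp_full.{0} (R := 1) one_pos k
    (ε := 1 - s) (by linarith) (fun j => S⁻¹ * M j)
  have hs' : 1 - (1 - s) = s := by ring
  rw [hs'] at HI
  set C : ℝ := 1 + |C₂| + |C₁ k| + S * Ci with hC
  have hC0 : 0 ≤ C := by rw [hC]; positivity
  have hCC₂ : |C₂| ≤ C := by
    rw [hC]; nlinarith [abs_nonneg C₂, abs_nonneg (C₁ k), mul_nonneg hS0.le hCi]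
  have hCC₁ : |C₁ k| ≤ C := by
    rw [hC]; nlinarith [abs_nonneg C₂, abs_nonneg (C₁ k), mul_nonneg hS0.le hCi]
  have hCSi : S * Ci ≤ C := by
    rw [hC]; nlinarith [abs_nonneg C₂, abs_nonneg (C₁ k), mul_nonneg hS0.le hCi]
  have hk2 : (2 : ℝ) ≤ k := by exact_mod_cast hk
  have hbs' : b * s < k * a - b := by nlinarith
  obtain ⟨K, hK, H⟩ := H242.T2.t2 (E := E) (F := E)
    (r := 1) (b := b) (s := s) (p := s) (C := C) (α := a) (β := b) k hs le_rfl hbs' ha hC0
  refine ⟨K, hK, ?_⟩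
  intro n t A Px Pz ht hn hPx hPz hA hAb hCl w hw
  set d : ℕ → E → E := fun j => A (n - j) with hd
  set L : ℕ → E →L[ℝ] E := fun j => ((Px (n - (j + 1))).symm : E →L[ℝ] E) with hL
  set B : ℕ → E →L[ℝ] E := fun j => (Pz (n - (j + 1)) : E →L[ℝ] E) with hB
  set e : ℕ → E → E := fun j x => d (j + 1) x - B j (d j (L j x)) with he
  have hLn : ∀ j < n, ‖L j‖ ≤ Real.exp (-a) := fun j hj => hPx _ (by omega)
  have hBn : ∀ j < n, ‖B j‖ ≤ Real.exp b := fun j hj => hPz _ (by omega)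
  have hexpa : Real.exp (-a) ≤ 1 := Real.exp_le_one_iff.2 (by linarith)
  have hLm : ∀ j < n, MapsTo (L j) (ball (0 : E) 1) (ball (0 : E) 1) := by
    intro j hj x hx
    rw [mem_ball_zero_iff] at hx ⊢
    calc ‖L j x‖ ≤ ‖L j‖ * ‖x‖ := (L j).le_opNorm x
      _ ≤ 1 * ‖x‖ := by
          have := (hLn j hj).trans hexpa
          gcongr
      _ < 1 := by simpa using hx
  have hdc : ∀ j ≤ n, ContDiffOn ℝ ∞ (d j) (ball 0 1) := fun j _ => hA _ (by omega)
  have hdb : ∀ j ≤ n, ∀ m, ∀ x ∈ ball (0 : E) 1, ‖iteratedFDeriv ℝ m (d j) x‖ ≤ |C₁ m| :=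
    fun j _ m x hx => (hAb (n - j) (by omega) m x hx).trans (le_abs_self _)
  have hcomp : ∀ j < n, ContDiffOn ℝ ∞ (fun x => B j (d j (L j x))) (ball 0 1) := fun j hj =>
    (B j).contDiff.comp_contDiffOn ((hdc j hj.le).comp (L j).contDiff.contDiffOn (hLm j hj))
  have hec : ∀ j < n, ContDiffOn ℝ ∞ (e j) (ball 0 1) := fun j hj =>
    (hdc (j + 1) hj).sub (hcomp j hj)
  have hcb : ∀ j < n, ∀ m, ∀ x ∈ ball (0 : E) 1,
      ‖iteratedFDeriv ℝ m (fun x => B j (d j (L j x))) x‖ ≤ Real.exp b * |C₁ m| := by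
    intro j hj m x hx
    have h := H242.T2.step (d := d j) (d' := fun x => B j (d j (L j x))) (e := fun _ => (0 : E))
      (L := L j) (B := B j) (r := 1) (k := m) (U := |C₁ m|) (V := 0) (α := a) (β := b)
      ((hLn j hj).trans hexpa) (hLn j hj) (hBn j hj) (hdc j hj.le) contDiffOn_const
      (fun x _ => by simp) (hdb j hj.le m) (fun x _ => by
        have : iteratedFDeriv ℝ m (fun _ : E => (0 : E)) x = 0 := by
          rw [iteratedFDeriv_zero_fun]; rfl
        rw [this, norm_zero]) x hx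
    rw [add_zero] at h
    refine h.trans ?_
    refine mul_le_mul_of_nonneg_right ?_ (abs_nonneg _)
    apply Real.exp_le_exp.2
    have : 0 ≤ (m : ℝ) * a := by positivity
    linarith
  have heb : ∀ j < n, ∀ m, ∀ x ∈ ball (0 : E) 1, ‖iteratedFDeriv ℝ m (e j) x‖ ≤ M m := by
    intro j hj m x hx
    have hle : ((m : ℕ∞) : WithTop ℕ∞) ≤ ∞ := by exact_mod_cast le_top
    have h1 : ContDiffAt ℝ m (d (j + 1)) x :=
      ((hdc (j + 1) hj).contDiffAt (isOpen_ball.mem_nhds hx)).of_le hle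
    have h2 : ContDiffAt ℝ m (fun x => B j (d j (L j x))) x :=
      ((hcomp j hj).contDiffAt (isOpen_ball.mem_nhds hx)).of_le hle
    have h3 : iteratedFDeriv ℝ m (e j) x = iteratedFDeriv ℝ m (d (j + 1)) x -
        iteratedFDeriv ℝ m (fun x => B j (d j (L j x))) x :=
      iteratedFDeriv_sub_apply h1 h2
    rw [h3]
    refine (norm_sub_le _ _).trans (add_le_add (hdb (j + 1) hj m x hx) (hcb j hj m x hx))
  refine H n t d e L B ht (hn.trans ?_) hLn hBn hdc hec (fun j hj x hx => ?_) ?_ ?_ w hw |>.trans' ?_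
  · exact mul_le_mul_of_nonneg_right ((le_abs_self _).trans hCC₂) ht.le
  · simp [he]
  · intro x hx
    exact (hdb 0 (Nat.zero_le _) k x hx).trans hCC₁
  · intro j hj x hx
    have hx0 : 0 < C * (Real.exp (b * (n - j : ℝ)) * t) := by
      have : 0 < C := by rw [hC]; nlinarith [abs_nonneg C₂, abs_nonneg (C₁ k), mul_nonneg hS0.le hCi]
      positivity
    set ρ : ℝ := min 1 (C * (Real.exp (b * (n - j : ℝ)) * t)) with hρ
    have hρ0 : 0 < ρ := lt_min one_pos hx0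
    have hρ1 : ρ ≤ 1 := min_le_left _ _
    have hle : ((k : ℕ∞) : WithTop ℕ∞) ≤ ∞ := by exact_mod_cast le_top
    have hZd : ∀ m, ∀ y ∈ ball (0 : E) 1, iteratedFDeriv ℝ m (fun x => S⁻¹ • e j x) y =
        S⁻¹ • iteratedFDeriv ℝ m (e j) y := by
      intro m y hy
      have hle : ((m : ℕ∞) : WithTop ℕ∞) ≤ ∞ := by exact_mod_cast le_top
      exact iteratedFDeriv_const_smul_apply
        (((hec j hj).contDiffAt (isOpen_ball.mem_nhds hy)).of_le hle)
    have hS' : 0 ≤ S⁻¹ := by positivity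
    have key := HI E E (fun x => S⁻¹ • e j x) (contDiffOn_const.smul (hec j hj)) (fun m y hy => by
      rw [hZd m y hy, norm_smul, Real.norm_of_nonneg hS']
      exact mul_le_mul_of_nonneg_left (heb j hj m y hy) hS') ρ hρ0 hρ1 (fun y hy => by
      rw [norm_smul, Real.norm_of_nonneg hS']
      refine le_min ?_ ?_
      · have h1 := heb j hj 0 y hy
        rw [norm_iteratedFDeriv_zero] at h1
        have h2 : ‖e j y‖ ≤ S := h1.trans (by rw [hS]; linarith)
        calc S⁻¹ * ‖e j y‖ ≤ S⁻¹ * S := mul_le_mul_of_nonneg_left h2 hS'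
          _ = 1 := inv_mul_cancel₀ hS0.ne'
      · have h1 := hCl (n - (j + 1)) (by omega) y hy
        have e1 : n - (j + 1) + 1 = n - j := by omega
        have e2 : ((n - (j + 1) : ℕ) : ℝ) + 1 = n - j := by
          have : ((n - (j + 1) + 1 : ℕ) : ℝ) = ((n - j : ℕ) : ℝ) := by rw [e1]
          rw [Nat.cast_sub hj.le] at this
          push_cast at this ⊢
          exact this
        rw [e2, e1] at h1
        have h3 : S⁻¹ ≤ 1 := inv_le_one_of_one_le₀ hS1
        calc S⁻¹ * ‖e j y‖ ≤ 1 * ‖e j y‖ := mul_le_mul_of_nonneg_right h3 (norm_nonneg _)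
          _ = ‖e j y‖ := one_mul _
          _ ≤ C₂ * (Real.exp (b * (n - j : ℝ)) * t) := h1
          _ ≤ C * (Real.exp (b * (n - j : ℝ)) * t) :=
              mul_le_mul_of_nonneg_right ((le_abs_self _).trans hCC₂) (by positivity)) x hx
    rw [hZd k x hx, norm_smul, Real.norm_of_nonneg hS'] at key
    calc ‖iteratedFDeriv ℝ k (e j) x‖ = S * (S⁻¹ * ‖iteratedFDeriv ℝ k (e j) x‖) := by
          rw [← mul_assoc, mul_inv_cancel₀ hS0.ne', one_mul]
      _ ≤ S * (Ci * ρ ^ s) := mul_le_mul_of_nonneg_left key hS0.le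
      _ = S * Ci * ρ ^ s := by ring
      _ ≤ C * ρ ^ s := mul_le_mul_of_nonneg_right hCSi (Real.rpow_nonneg hρ0.le _)
  · simp [hd]

end Vale.Agent.P207.H790.T2
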