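import Vale.Agent.P207.H790.N4.Del

/-!
# P207 / line N4 / row T2: the chart half, level of sequences

`F i` the affine chart of the neighbouring leaf in the affine coordinate of the central leaf at time
`-i` (followed by the cumulative linear expansion), `P i (w, p)` the one step transition of the
Darboux charts, `d i` the gradient of the generating function.
-/

set_option linter.all false
set_option maxSynthPendingDepth 3

open Finset Real Metric Set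

namespace Vale.Agent.P207.H790.T2

variable {E G : Type*} [NormedAddCommGroup E] [NormedSpace ℝ E] [NormedAddCommGroup G]
  [NormedSpace ℝ G]

/-- the linear map `(A, B) ↦ A.prod B`. -/
noncomputable def prodCLM (E : Type*) [NormedAddCommGroup E] [NormedSpace ℝ E] :
    ((E →L[ℝ] E) × (E →L[ℝ] E)) →L[ℝ] (E →L[ℝ] E × E) :=
  LinearMap.mkContinuous
    { toFun := fun p => p.1.prod p.2
      map_add' := fun p q => by ext <;> simp
      map_smul' := fun c p => by ext <;> simp } 1 (fun p => by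
        rw [one_mul]
        show ‖p.1.prod p.2‖ ≤ ‖p‖
        exact (ContinuousLinearMap.opNorm_prod _ _).le)

theorem prodCLM_apply (E : Type*) [NormedAddCommGroup E] [NormedSpace ℝ E]
    (A B : E →L[ℝ] E) : prodCLM E (A, B) = A.prod B := rfl

/-- second derivative of `w ↦ P (w, d w)`. -/
theorem d2_graph_le {P : E × E → G} {d : E → E} {w : E} {ε C : ℝ} (hε : 0 ≤ ε) (hε1 : ε ≤ C)
    (hC : 1 ≤ C) (hP : ContDiffAt ℝ 2 P (w, d w)) (hd : ContDiffAt ℝ 2 d w)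
    (h1 : ‖fderiv ℝ P (w, d w)‖ ≤ C) (h2 : ‖fderiv ℝ (fderiv ℝ P) (w, d w)‖ ≤ C)
    (h3 : ∀ u v : E, ‖fderiv ℝ (fderiv ℝ P) (w, d w) (u, 0) (v, 0)‖ ≤ ε * ‖u‖ * ‖v‖)
    (hd1 : ‖fderiv ℝ d w‖ ≤ ε) (hd2 : ‖fderiv ℝ (fderiv ℝ d) w‖ ≤ ε) :
    ‖fderiv ℝ (fderiv ℝ (fun w => P (w, d w))) w‖ ≤ 5 * C ^ 2 * ε := by
  have hg : ContDiffAt ℝ 2 (fun w : E => (w, d w)) w := contDiffAt_id.prodMk hd
  refine ContinuousLinearMap.opNorm_le_bound₂ _ (by positivity) fun u v => ?_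
  rw [d2_comp (f := P) (g := fun w => (w, d w)) hP hg]
  have e1 : ∀ᶠ y in nhds w, DifferentiableAt ℝ d y := by
    filter_upwards [hd.eventually (by simp)] with y hy using hy.differentiableAt (by norm_num)
  have f1 : fderiv ℝ (fun w : E => (w, d w)) =ᶠ[nhds w]
      fun y => (ContinuousLinearMap.id ℝ E).prod (fderiv ℝ d y) := by
    filter_upwards [e1] with y hy
    exact ((hasFDerivAt_id y).prodMk hy.hasFDerivAt).fderiv
  have hd' : DifferentiableAt ℝ (fderiv ℝ d) w :=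
    (hd.fderiv_right (m := 1) (by norm_num)).differentiableAt (by norm_num)
  have f0 : ∀ z, fderiv ℝ (fun w : E => (w, d w)) w z = (z, fderiv ℝ d w z) := by
    intro z; rw [f1.eq_of_nhds]; rfl
  have f2 : ∀ a b, fderiv ℝ (fderiv ℝ (fun w : E => (w, d w))) w a b =
      (0, fderiv ℝ (fderiv ℝ d) w a b) := by
    intro a b
    rw [f1.fderiv_eq]
    have h : HasFDerivAt (fun y => (ContinuousLinearMap.id ℝ E).prod (fderiv ℝ d y))
        ((prodCLM E).comp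
          ((0 : E →L[ℝ] (E →L[ℝ] E)).prod (fderiv ℝ (fderiv ℝ d) w))) w := by
      have h0 : HasFDerivAt (fun y => ((ContinuousLinearMap.id ℝ E), (fderiv ℝ d y)))
          ((0 : E →L[ℝ] (E →L[ℝ] E)).prod (fderiv ℝ (fderiv ℝ d) w)) w :=
        (hasFDerivAt_const _ _).prodMk hd'.hasFDerivAt
      exact (ContinuousLinearMap.hasFDerivAt
        (prodCLM E)).comp w h0
    rw [h.fderiv]
    rfl
  rw [f0 u, f0 v, f2 u v]
  set p : E := fderiv ℝ d w u with hp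
  set p' : E := fderiv ℝ d w v with hp'
  have np : ‖p‖ ≤ ε * ‖u‖ := (ContinuousLinearMap.le_opNorm _ _).trans
    (mul_le_mul_of_nonneg_right hd1 (norm_nonneg _))
  have np' : ‖p'‖ ≤ ε * ‖v‖ := (ContinuousLinearMap.le_opNorm _ _).trans
    (mul_le_mul_of_nonneg_right hd1 (norm_nonneg _))
  have s1 : ((u, p) : E × E) = (u, 0) + (0, p) := by simp
  have s2 : ((v, p') : E × E) = (v, 0) + (0, p') := by simp
  set Q := fderiv ℝ (fderiv ℝ P) (w, d w) with hQ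
  have n1 : ‖((u, (0 : E)) : E × E)‖ = ‖u‖ := by simp [Prod.norm_def]
  have n2 : ‖(((0 : E), p) : E × E)‖ = ‖p‖ := by simp [Prod.norm_def]
  have n3 : ‖(((0 : E), p') : E × E)‖ = ‖p'‖ := by simp [Prod.norm_def]
  have hC0 : 0 ≤ C := by linarith
  have k1 : ‖Q (u, 0) (0, p')‖ ≤ C * ‖u‖ * (ε * ‖v‖) := by
    refine (Q.le_opNorm₂ _ _).trans ?_
    rw [n1, n3]
    gcongr
  have k2 : ‖Q (0, p) (v, p')‖ ≤ C * (ε * ‖u‖) * (C * ‖v‖) := by
    refine (Q.le_opNorm₂ _ _).trans ?_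
    rw [n2]
    have : ‖((v, p') : E × E)‖ ≤ C * ‖v‖ := by
      rw [Prod.norm_def]
      refine max_le ?_ (np'.trans (by gcongr))
      exact le_mul_of_one_le_left (norm_nonneg _) hC
    gcongr
  have k3 : ‖fderiv ℝ P (w, d w) (0, fderiv ℝ (fderiv ℝ d) w u v)‖ ≤ C * (ε * ‖u‖ * ‖v‖) := by
    refine (ContinuousLinearMap.le_opNorm _ _).trans ?_
    have : ‖(((0 : E), fderiv ℝ (fderiv ℝ d) w u v) : E × E)‖ ≤ ε * ‖u‖ * ‖v‖ := by
      rw [Prod.norm_def]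
      simp only [norm_zero]
      refine max_le (by positivity) ((ContinuousLinearMap.le_opNorm₂ _ _ _).trans ?_)
      gcongr
    gcongr
  have hdec : Q (u, p) (v, p') = Q (u, 0) (v, 0) + Q (u, 0) (0, p') + Q (0, p) (v, p') := by
    conv_lhs => rw [s1, map_add, ContinuousLinearMap.add_apply]
    conv_lhs => enter [1, 2]; rw [s2]
    rw [map_add]
  rw [hdec]
  calc ‖Q (u, 0) (v, 0) + Q (u, 0) (0, p') + Q (0, p) (v, p') +
        fderiv ℝ P (w, d w) (0, fderiv ℝ (fderiv ℝ d) w u v)‖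
      ≤ ε * ‖u‖ * ‖v‖ + C * ‖u‖ * (ε * ‖v‖) + C * (ε * ‖u‖) * (C * ‖v‖) +
        C * (ε * ‖u‖ * ‖v‖) := by
        refine (norm_add_le _ _).trans (add_le_add ((norm_add_le _ _).trans (add_le_add
          ((norm_add_le _ _).trans (add_le_add (h3 u v) k1)) k2)) k3)
    _ = (1 + C + C ^ 2 + C) * (ε * ‖u‖ * ‖v‖) := by ring
    _ ≤ (5 * C ^ 2) * (ε * ‖u‖ * ‖v‖) := by
        have : 1 + C + C ^ 2 + C ≤ 5 * C ^ 2 := by nlinarith
        gcongr
    _ = _ := by ring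

/-- **the chart half on sequences.** -/
theorem chart_core {a b σ C₀ : ℝ} (hb : 0 < b) (hσ : 0 ≤ σ) (hσ1 : σ ≤ 1)
    (hσb : b * σ < 2 * a - b) (hC : 1 ≤ C₀) : ∃ C, 0 < C ∧
    ∀ (T : ℕ) (t : ℝ) (F : ℕ → E → G) (P : ℕ → E × E → E) (d : ℕ → E → E) (c : ℕ → G)
      (U : ℕ → Set E),
      0 < t → t ≤ 1 → exp (b * T) * t ≤ C₀ → exp (-b * T) ≤ C₀ * t → (∀ i ≤ T, IsOpen (U i)) →
      (∀ i ≤ T, ContDiffOn ℝ 2 (F i) (U i)) → (∀ i < T, ContDiffOn ℝ 2 (d i) (U i)) →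
      (∀ i < T, ∀ x ∈ U i, ContDiffAt ℝ 2 (P i) (x, d i x)) →
      (∀ i < T, ∀ x ∈ U i, P i (x, d i x) ∈ U (i + 1)) →
      (∀ i < T, ∀ x ∈ U i, F i x = F (i + 1) (P i (x, d i x)) + c i) →
      (∀ x ∈ U T, ‖fderiv ℝ (fderiv ℝ (F T)) x‖ ≤ C₀ * exp (b * T)) →
      (∀ i ≤ T, ∀ x ∈ U i, ‖fderiv ℝ (F i) x‖ ≤ C₀ * exp (b * i)) →
      (∀ i ≤ T, ∀ x ∈ U i, ∀ u, ‖u‖ ≤ C₀ * exp (-a * i) * ‖fderiv ℝ (F i) x u‖) →
      (∀ i < T, ∀ x ∈ U i, ‖fderiv ℝ (P i) (x, d i x)‖ ≤ C₀) →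
      (∀ i < T, ∀ x ∈ U i, ‖fderiv ℝ (fderiv ℝ (P i)) (x, d i x)‖ ≤ C₀) →
      (∀ i < T, ∀ x ∈ U i, ∀ u v : E, ‖fderiv ℝ (fderiv ℝ (P i)) (x, d i x) (u, 0) (v, 0)‖ ≤
        C₀ * (exp (b * (i + 1)) * t) * ‖u‖ * ‖v‖) →
      (∀ i < T, ∀ x ∈ U i, ‖fderiv ℝ (d i) x‖ ≤ C₀ * (exp (b * (i + 1)) * t)) →
      (∀ i < T, ∀ x ∈ U i, ‖fderiv ℝ (fderiv ℝ (d i)) x‖ ≤ C₀ * (exp (b * (i + 1)) * t)) →
      ∀ q ∈ U 0, ‖fderiv ℝ (fderiv ℝ (F 0)) q‖ ≤ C * t ^ σ := by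
  obtain ⟨C, hC0, H⟩ := aff_var (E := E) (G := G) (C₀ := 5 * C₀ ^ 5) hb hσ hσ1 hσb (by
    have : 1 ≤ C₀ ^ 5 := one_le_pow₀ hC
    linarith)
  have hC₀ : 0 < C₀ := by linarith
  have hCC : C₀ ≤ 5 * C₀ ^ 5 := by
    have : C₀ ≤ C₀ ^ 5 := le_self_pow₀ hC (by norm_num)
    nlinarith [pow_pos hC₀ 5]
  refine ⟨C, hC0, ?_⟩
  intro T t F P d c U ht ht1 hT1 hT2 hU hF hd hP hPm hrel hF2 hF1 hlow hP1 hP2 hP3 hd1 hd2
  have hgC : ∀ i < T, ContDiffOn ℝ 2 (fun x => P i (x, d i x)) (U i) := by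
    intro i hi x hx
    have h1 : ContDiffAt ℝ 2 (d i) x := (hd i hi x hx).contDiffAt ((hU i hi.le).mem_nhds hx)
    have h2 : ContDiffAt ℝ 2 (fun x : E => (x, d i x)) x := contDiffAt_id.prodMk h1
    exact (ContDiffAt.comp (g := P i) (f := fun x : E => (x, d i x)) x (hP i hi x hx)
      h2).contDiffWithinAt
  have hexp : ∀ i : ℕ, i ≤ T → exp (b * i) * t ≤ C₀ := by
    intro i hi
    have h1 : exp (b * i) * t ≤ exp (b * T) * t := by
      have : (i : ℝ) ≤ T := by exact_mod_cast hi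
      gcongr
    exact h1.trans hT1
  refine H T t (fun i => exp (b * i) * t) F (fun i x => P i (x, d i x)) c U ht ht1 ?_ ?_ hU hF
    hgC hPm hrel ?_ ?_ ?_ ?_ ?_
  · intro i _ hi
    refine ⟨by positivity, ?_⟩
    show exp (b * i) * t ≤ 5 * C₀ ^ 5 * min 1 (exp (b * i) * t)
    rcases min_cases (1 : ℝ) (exp (b * i) * t) with ⟨h, _⟩ | ⟨h, _⟩
    · rw [h, mul_one]; exact (hexp i hi).trans hCC
    · rw [h]
      refine le_mul_of_one_le_left (by positivity) (hC.trans hCC)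
  · exact hT2.trans (mul_le_mul_of_nonneg_right hCC ht.le)
  · exact fun x hx => (hF2 x hx).trans (mul_le_mul_of_nonneg_right hCC (exp_pos _).le)
  · exact fun i _ hi x hx => (hF1 i hi x hx).trans (mul_le_mul_of_nonneg_right hCC (exp_pos _).le)
  · intro i hi x hx u
    refine (hlow i hi x hx u).trans ?_
    gcongr
  · intro x hx
    have := hF1 0 (Nat.zero_le _) x hx
    simp only [Nat.cast_zero, mul_zero, exp_zero, mul_one] at this
    exact this.trans hCC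
  · intro i hi x hx
    have hs : 0 ≤ exp (b * (i + 1)) * t := by positivity
    have hs1 : exp (b * (i + 1)) * t ≤ C₀ := by
      have := hexp (i + 1) (by omega)
      push_cast at this
      exact this
    have h1 : ContDiffAt ℝ 2 (d i) x := (hd i hi x hx).contDiffAt ((hU i hi.le).mem_nhds hx)
    have hC2 : C₀ ≤ C₀ ^ 2 := le_self_pow₀ hC (by norm_num)
    have key := d2_graph_le (ε := C₀ * (exp (b * (i + 1)) * t)) (C := C₀ ^ 2) (by positivity)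
      (by rw [sq]; exact mul_le_mul_of_nonneg_left hs1 hC₀.le) (one_le_pow₀ hC) (hP i hi x hx) h1
      ((hP1 i hi x hx).trans hC2) ((hP2 i hi x hx).trans hC2) (hP3 i hi x hx)
      (hd1 i hi x hx) (hd2 i hi x hx)
    refine key.trans (le_of_eq ?_)
    push_cast
    ring

end Vale.Agent.P207.H790.T2
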