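import Vale.Agent.P207.H790.N4.AffVar
import Vale.Agent.P207.N3.H545.Interp

/-!
# P207 / line N4 / row T2: variation of the generating functions, interpolation of rates
-/

set_option linter.all false
set_option maxSynthPendingDepth 3

open Finset Real Metric Set

namespace Vale.Agent.P207.H790.T2

/-- the sum lemma without truncation: the orbit is followed as long as `exp (b i) t ≤ C₀`. -/
theorem sum_le_exp {b c p σ C₀ : ℝ} (hb : 0 < b) (hσ : 0 ≤ σ) (hσp : σ ≤ p) (hσc : b * σ < c)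
    (hC : 1 ≤ C₀) : ∃ C, 0 < C ∧ ∀ (T : ℕ) (t : ℝ), 0 < t → t ≤ 1 →
      exp (b * T) * t ≤ C₀ → exp (-b * T) ≤ C₀ * t →
      exp (-c * T) + ∑ i ∈ range T, exp (-c * (i + 1)) * (exp (b * (i + 1)) * t) ^ p ≤ C * t ^ σ := by
  obtain ⟨C, hC0, H⟩ := sum_le' hb hσ hσp hσc hC
  have hC₀ : 0 < C₀ := by linarith
  refine ⟨C, hC0, fun T t ht ht1 hT1 hT2 => ?_⟩
  have := H T t (fun i => exp (b * i) * t) ht ht1 (fun i _ hi => ⟨by positivity, ?_⟩) hT2
  · simpa using this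
  · have h1 : exp (b * i) * t ≤ exp (b * T) * t := by
      have : (i : ℝ) ≤ T := by exact_mod_cast hi
      gcongr
    show exp (b * i) * t ≤ C₀ * min 1 (exp (b * i) * t)
    rcases min_cases (1 : ℝ) (exp (b * i) * t) with ⟨h, _⟩ | ⟨h, _⟩
    · rw [h, mul_one]; exact h1.trans hT1
    · rw [h]
      exact le_mul_of_one_le_left (by positivity) hC

universe u

/-- **interpolation with rates**: `‖Z‖ ≤ A t^σ` and `‖D^K Z‖ ≤ A` give `‖D^k Z‖ ≤ C t^σ'`, every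
`σ' < σ`, as soon as `K` is large. -/
theorem interp_rate {k : ℕ} {σ σ' : ℝ} (hσ' : σ' < σ) {r R : ℝ} (hr : r < R) :
    ∃ K : ℕ, k < K ∧ ∀ A : ℝ, ∃ C : ℝ, 0 ≤ C ∧
    ∀ (E F : Type u) [NormedAddCommGroup E] [NormedSpace ℝ E] [NormedAddCommGroup F]
      [NormedSpace ℝ F] (Z : E → F) (x₀ : E) (t : ℝ), 0 < t → t ≤ 1 →
      ContDiffOn ℝ K Z (ball x₀ R) →
      (∀ y ∈ ball x₀ R, ‖Z y‖ ≤ A * t ^ σ) →
      (∀ y ∈ ball x₀ R, ‖iteratedFDeriv ℝ K Z y‖ ≤ A) →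
      ∀ x ∈ ball x₀ r, ‖iteratedFDeriv ℝ k Z x‖ ≤ C * t ^ σ' := by
  set η : ℝ := (σ - σ') / (k + 1) with hη
  have hη0 : 0 < η := by rw [hη]; apply div_pos (by linarith); positivity
  obtain ⟨N, hN⟩ := exists_nat_gt (σ' / η)
  set K : ℕ := k + N + 1 with hK
  have hkK : k < K := by omega
  have hK2 : σ' ≤ η * ((K - k : ℕ) : ℝ) := by
    have h1 : ((K - k : ℕ) : ℝ) = N + 1 := by
      have : K - k = N + 1 := by omega
      rw [this]; push_cast; ring
    rw [h1]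
    rw [div_lt_iff₀ hη0] at hN
    nlinarith
  refine ⟨K, hkK, fun A => ?_⟩
  obtain ⟨C₁, hC₁, H⟩ := Vale.Agent.P207.N3.H545.exists_interp_scale.{u} k K hkK
  set d : ℝ := min 1 ((R - r) / 2) with hd
  have hd0 : 0 < d := lt_min zero_lt_one (by linarith)
  have hd1 : d ≤ 1 := min_le_left _ _
  have hd2 : d ≤ (R - r) / 2 := min_le_right _ _
  refine ⟨C₁ * ((d⁻¹) ^ k * |A| + |A|), by positivity, ?_⟩
  intro E F _ _ _ _ Z x₀ t ht ht1 hZ h0 hK' x hx
  have hte : 0 < t ^ η := rpow_pos_of_pos ht _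
  have hte1 : t ^ η ≤ 1 := rpow_le_one ht.le ht1 hη0.le
  set h : ℝ := d * t ^ η with hh
  have hh0 : 0 < h := mul_pos hd0 hte
  have hhd : h ≤ d := mul_le_of_le_one_right hd0.le hte1
  have hsub : closedBall x h ⊆ ball x₀ R := by
    intro y hy
    rw [mem_closedBall] at hy
    rw [mem_ball] at hx ⊢
    linarith [dist_triangle y x x₀]
  have hx' : x ∈ ball x₀ R := ball_subset_ball hr.le hx
  have key := H E F Z x h (|A| * t ^ σ) |A| hh0
    (fun y hy => (hZ y (hsub hy)).contDiffAt (isOpen_ball.mem_nhds (hsub hy)))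
    (fun y hy => (h0 y (hsub hy)).trans
      (mul_le_mul_of_nonneg_right (le_abs_self A) (rpow_nonneg ht.le _)))
    (fun y hy => (hK' y (hsub hy)).trans (le_abs_self A))
  refine key.trans ?_
  rw [mul_assoc]
  refine mul_le_mul_of_nonneg_left ?_ hC₁
  have e1 : (h⁻¹) ^ k * (|A| * t ^ σ) ≤ (d⁻¹) ^ k * |A| * t ^ σ' := by
    have e2 : (h⁻¹) ^ k = (d⁻¹) ^ k * t ^ (-(η * k)) := by
      rw [hh, mul_inv, mul_pow, ← rpow_neg ht.le, ← rpow_natCast (t ^ (-η)), ← rpow_mul ht.le]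
      congr 2; ring
    have e3 : t ^ (-(η * k)) * t ^ σ ≤ t ^ σ' := by
      rw [← rpow_add ht]
      refine rpow_le_rpow_of_exponent_ge ht ht1 ?_
      have : η * k ≤ η * (k + 1) := by nlinarith
      have h4 : η * (k + 1) = σ - σ' := by rw [hη]; field_simp
      linarith
    calc (h⁻¹) ^ k * (|A| * t ^ σ) = (d⁻¹) ^ k * |A| * (t ^ (-(η * k)) * t ^ σ) := by
          rw [e2]; ring
      _ ≤ _ := by gcongr
  have e2 : h ^ (K - k) * |A| ≤ |A| * t ^ σ' := by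
    have e3 : h ^ (K - k) ≤ t ^ σ' := by
      calc h ^ (K - k) ≤ (t ^ η) ^ (K - k) := by
            refine pow_le_pow_left₀ hh0.le ?_ _
            rw [hh]; exact mul_le_of_le_one_left hte.le hd1
        _ = t ^ (η * ((K - k : ℕ) : ℝ)) := by rw [← rpow_natCast, ← rpow_mul ht.le]
        _ ≤ t ^ σ' := rpow_le_rpow_of_exponent_ge ht ht1 hK2
    calc h ^ (K - k) * |A| ≤ t ^ σ' * |A| := by gcongr
      _ = _ := mul_comm _ _
  calc (h⁻¹) ^ k * (|A| * t ^ σ) + h ^ (K - k) * |A|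
      ≤ (d⁻¹) ^ k * |A| * t ^ σ' + |A| * t ^ σ' := add_le_add e1 e2
    _ = _ := by ring

variable {E G : Type*} [NormedAddCommGroup E] [NormedSpace ℝ E] [NormedAddCommGroup G]
  [NormedSpace ℝ G]

/-- **variation of the generating functions (abstract)**: `δ i = δ (i+1) ∘ L i + e i`, `Λ i` the
cumulative linear maps. -/
theorem del_var {a b p σ C₀ : ℝ} (hb : 0 < b) (hσ : 0 ≤ σ) (hσp : σ ≤ p)
    (hσb : b * σ < 2 * a) (hC : 1 ≤ C₀) : ∃ C, 0 < C ∧
    ∀ (T : ℕ) (t : ℝ) (δ e : ℕ → E → G) (L Λ : ℕ → E →L[ℝ] E) (U : ℕ → Set E),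
      0 < t → t ≤ 1 → exp (b * T) * t ≤ C₀ → exp (-b * T) ≤ C₀ * t → (∀ i ≤ T, IsOpen (U i)) →
      (∀ i ≤ T, ContDiffOn ℝ 2 (δ i) (U i)) → (∀ i < T, ContDiffOn ℝ 2 (e i) (U i)) →
      (∀ i < T, MapsTo (L i) (U i) (U (i + 1))) →
      (∀ i < T, ∀ x ∈ U i, δ i x = δ (i + 1) (L i x) + e i x) →
      Λ 0 = ContinuousLinearMap.id ℝ E → (∀ i < T, Λ (i + 1) = (L i).comp (Λ i)) →
      (∀ i ≤ T, ‖Λ i‖ ≤ C₀ * exp (-a * i)) →
      (∀ x ∈ U T, ‖fderiv ℝ (fderiv ℝ (δ T)) x‖ ≤ C₀) →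
      (∀ i < T, ∀ x ∈ U i, ‖fderiv ℝ (fderiv ℝ (e i)) x‖ ≤ C₀ * (exp (b * (i + 1)) * t) ^ p) →
      ∀ q ∈ U 0, ‖fderiv ℝ (fderiv ℝ (δ 0)) q‖ ≤ C * t ^ σ := by
  have ha : 0 < 2 * a := by nlinarith
  obtain ⟨C, hC0, H⟩ := sum_le_exp (p := p) hb hσ hσp hσb hC
  have hC₀ : 0 < C₀ := by linarith
  refine ⟨C₀ ^ 3 * exp (2 * a) * C, by positivity, ?_⟩
  intro T t δ e L Λ U ht ht1 hT1 hT2 hU hδ he hLm hrel hΛ0 hΛs hΛ hδ2 he2 q hq
  have hs := H T t ht ht1 hT1 hT2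
  have hchain : ∀ (f : E → G) (A : E →L[ℝ] E) (x : E), ContDiffAt ℝ 2 f (A x) → ∀ u v,
      fderiv ℝ (fderiv ℝ (fun y => f (A y))) x u v = fderiv ℝ (fderiv ℝ f) (A x) (A u) (A v) := by
    intro f A x hf u v
    rw [d2_comp hf A.contDiff.contDiffAt]
    have h1 : fderiv ℝ (fun y => A y) = fun _ => A := by
      funext y; exact A.fderiv
    have h2 : fderiv ℝ (⇑A) = fun _ => A := h1
    rw [h2]
    simp
  have key : ∀ i ≤ T, Λ i q ∈ U i ∧
      ∀ u v, ‖fderiv ℝ (fderiv ℝ (δ 0)) q u v -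
          fderiv ℝ (fderiv ℝ (δ i)) (Λ i q) (Λ i u) (Λ i v)‖ ≤
        (∑ k ∈ range i, C₀ ^ 3 * exp (2 * a) *
          (exp (-(2 * a) * (k + 1)) * (exp (b * (k + 1)) * t) ^ p)) * ‖u‖ * ‖v‖ := by
    intro i
    induction i with
    | zero =>
      intro _
      rw [hΛ0]
      exact ⟨hq, fun u v => by simp⟩
    | succ i ih =>
      intro hi
      obtain ⟨hx, hD⟩ := ih (by omega)
      have hiT : i < T := by omega
      set x := Λ i q with hxd
      have hLx := hLm i hiT hx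
      have hn : Λ (i + 1) q = L i x := by rw [hΛs i hiT]; rfl
      refine ⟨by rw [hn]; exact hLx, fun u v => ?_⟩
      have cδ : ContDiffAt ℝ 2 (δ (i + 1)) (L i x) :=
        (hδ (i + 1) hi _ hLx).contDiffAt ((hU (i + 1) hi).mem_nhds hLx)
      have ce : ContDiffAt ℝ 2 (e i) x := (he i hiT x hx).contDiffAt ((hU i hiT.le).mem_nhds hx)
      have cδL : ContDiffAt ℝ 2 (fun y => δ (i + 1) (L i y)) x :=
        ContDiffAt.comp (g := δ (i + 1)) (f := fun y => L i y) x cδ (L i).contDiff.contDiffAt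
      have hev : δ i =ᶠ[nhds x] fun y => δ (i + 1) (L i y) + e i y := by
        filter_upwards [(hU i hiT.le).mem_nhds hx] with y hy using hrel i hiT y hy
      have hd1 : fderiv ℝ (δ i) =ᶠ[nhds x]
          fun y => fderiv ℝ (fun y => δ (i + 1) (L i y)) y + fderiv ℝ (e i) y := by
        filter_upwards [hev.eventuallyEq_nhds, cδL.eventually (by simp), ce.eventually (by simp)]
          with y hy h1 h2
        rw [hy.fderiv_eq]
        exact fderiv_fun_add (h1.differentiableAt (by norm_num)) (h2.differentiableAt (by norm_num))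
      have h2 : ∀ u v, fderiv ℝ (fderiv ℝ (δ i)) x u v =
          fderiv ℝ (fderiv ℝ (δ (i + 1))) (L i x) (L i u) (L i v) +
            fderiv ℝ (fderiv ℝ (e i)) x u v := by
        intro u v
        have hA : DifferentiableAt ℝ (fderiv ℝ (fun y => δ (i + 1) (L i y))) x :=
          (cδL.fderiv_right (m := 1) (by norm_num)).differentiableAt (by norm_num)
        have hB : DifferentiableAt ℝ (fderiv ℝ (e i)) x :=
          (ce.fderiv_right (m := 1) (by norm_num)).differentiableAt (by norm_num)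
        rw [hd1.fderiv_eq]
        have : fderiv ℝ (fun y => fderiv ℝ (fun y => δ (i + 1) (L i y)) y + fderiv ℝ (e i) y) x =
            fderiv ℝ (fderiv ℝ (fun y => δ (i + 1) (L i y))) x + fderiv ℝ (fderiv ℝ (e i)) x :=
          fderiv_fun_add hA hB
        rw [this, ContinuousLinearMap.add_apply, ContinuousLinearMap.add_apply,
          hchain _ (L i) x cδ]
      have hYn : ∀ w, ‖Λ i w‖ ≤ C₀ * exp (-a * i) * ‖w‖ := fun w =>
        (ContinuousLinearMap.le_opNorm _ _).trans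
          (mul_le_mul_of_nonneg_right (hΛ i hiT.le) (norm_nonneg _))
      have hlast : ‖fderiv ℝ (fderiv ℝ (e i)) x (Λ i u) (Λ i v)‖ ≤
          C₀ ^ 3 * exp (2 * a) * (exp (-(2 * a) * (i + 1)) * (exp (b * (i + 1)) * t) ^ p) *
            ‖u‖ * ‖v‖ := by
        have hpp : 0 ≤ (exp (b * (i + 1)) * t) ^ p := by positivity
        calc ‖fderiv ℝ (fderiv ℝ (e i)) x (Λ i u) (Λ i v)‖
            ≤ (C₀ * (exp (b * (i + 1)) * t) ^ p) * (C₀ * exp (-a * i) * ‖u‖) *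
              (C₀ * exp (-a * i) * ‖v‖) := by
              refine (ContinuousLinearMap.le_opNorm₂ _ _ _).trans ?_
              exact mul_le_mul (mul_le_mul (he2 i hiT x hx) (hYn u) (norm_nonneg _)
                (by positivity)) (hYn v) (norm_nonneg _) (by positivity)
          _ = C₀ ^ 3 * (exp (-a * i) * exp (-a * i)) * (exp (b * (i + 1)) * t) ^ p *
              ‖u‖ * ‖v‖ := by ring
          _ = _ := by
              have : exp (-a * i) * exp (-a * i) = exp (2 * a) * exp (-(2 * a) * (i + 1)) := by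
                rw [← exp_add, ← exp_add]; congr 1; ring
              rw [this]; ring
      have hc1 : ∀ w, Λ (i + 1) w = L i (Λ i w) := fun w => by rw [hΛs i hiT]; rfl
      rw [Finset.sum_range_succ, add_mul, add_mul, hn, hc1 u, hc1 v]
      calc ‖fderiv ℝ (fderiv ℝ (δ 0)) q u v - fderiv ℝ (fderiv ℝ (δ (i + 1))) (L i x)
            (L i (Λ i u)) (L i (Λ i v))‖
          = ‖(fderiv ℝ (fderiv ℝ (δ 0)) q u v - fderiv ℝ (fderiv ℝ (δ i)) x (Λ i u) (Λ i v)) +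
              fderiv ℝ (fderiv ℝ (e i)) x (Λ i u) (Λ i v)‖ := by
            rw [h2 (Λ i u) (Λ i v)]; congr 1; abel
        _ ≤ _ := (norm_add_le _ _).trans (add_le_add (hD u v) hlast)
  obtain ⟨hx, hD⟩ := key T le_rfl
  have hYn : ∀ w, ‖Λ T w‖ ≤ C₀ * exp (-a * T) * ‖w‖ := fun w =>
    (ContinuousLinearMap.le_opNorm _ _).trans
      (mul_le_mul_of_nonneg_right (hΛ T le_rfl) (norm_nonneg _))
  have hpos : 0 ≤ C₀ ^ 3 * exp (2 * a) * C * t ^ σ := by
    have : 0 ≤ t ^ σ := rpow_nonneg ht.le _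
    positivity
  refine ContinuousLinearMap.opNorm_le_bound₂ _ hpos fun u v => ?_
  have hT2' : ‖fderiv ℝ (fderiv ℝ (δ T)) (Λ T q) (Λ T u) (Λ T v)‖ ≤
      C₀ ^ 3 * exp (2 * a) * exp (-(2 * a) * T) * ‖u‖ * ‖v‖ := by
    calc ‖fderiv ℝ (fderiv ℝ (δ T)) (Λ T q) (Λ T u) (Λ T v)‖
        ≤ C₀ * (C₀ * exp (-a * T) * ‖u‖) * (C₀ * exp (-a * T) * ‖v‖) := by
          refine (ContinuousLinearMap.le_opNorm₂ _ _ _).trans ?_
          exact mul_le_mul (mul_le_mul (hδ2 _ hx) (hYn u) (norm_nonneg _) (by positivity))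
            (hYn v) (norm_nonneg _) (by positivity)
      _ = C₀ ^ 3 * 1 * (exp (-a * T) * exp (-a * T)) * ‖u‖ * ‖v‖ := by ring
      _ ≤ C₀ ^ 3 * exp (2 * a) * (exp (-a * T) * exp (-a * T)) * ‖u‖ * ‖v‖ := by
          have k2 : 1 ≤ exp (2 * a) := one_le_exp ha.le
          gcongr
      _ = _ := by
          have : exp (-a * T) * exp (-a * T) = exp (-(2 * a) * T) := by
            rw [← exp_add]; congr 1; ring
          rw [this]
  have hsum : (∑ k ∈ range T, C₀ ^ 3 * exp (2 * a) *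
      (exp (-(2 * a) * (k + 1)) * (exp (b * (k + 1)) * t) ^ p)) =
      C₀ ^ 3 * exp (2 * a) * ∑ k ∈ range T,
        exp (-(2 * a) * (k + 1)) * (exp (b * (k + 1)) * t) ^ p := by
    rw [Finset.mul_sum]
  calc ‖fderiv ℝ (fderiv ℝ (δ 0)) q u v‖
      = ‖(fderiv ℝ (fderiv ℝ (δ 0)) q u v -
          fderiv ℝ (fderiv ℝ (δ T)) (Λ T q) (Λ T u) (Λ T v)) +
          fderiv ℝ (fderiv ℝ (δ T)) (Λ T q) (Λ T u) (Λ T v)‖ := by congr 1; abel
    _ ≤ _ := norm_add_le _ _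
    _ ≤ (C₀ ^ 3 * exp (2 * a) * ∑ k ∈ range T,
          exp (-(2 * a) * (k + 1)) * (exp (b * (k + 1)) * t) ^ p) * ‖u‖ * ‖v‖ +
          C₀ ^ 3 * exp (2 * a) * exp (-(2 * a) * T) * ‖u‖ * ‖v‖ := by
        have := hD u v
        rw [hsum] at this
        exact add_le_add this hT2'
    _ = C₀ ^ 3 * exp (2 * a) * (exp (-(2 * a) * T) + ∑ k ∈ range T,
          exp (-(2 * a) * (k + 1)) * (exp (b * (k + 1)) * t) ^ p) * ‖u‖ * ‖v‖ := by ring
    _ ≤ C₀ ^ 3 * exp (2 * a) * (C * t ^ σ) * ‖u‖ * ‖v‖ := by gcongr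
    _ = _ := by ring

end Vale.Agent.P207.H790.T2
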